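import Vale.Agent.P328c.Defs

/-! # P328: accepted proposals are in bijection with the tables (TASK P328c-BIJ) -/

namespace Vale.Agent.P328c

open Finset

theorem mem_accepted {K m n : ℕ} (ρ : Fin (K + 1) → ℕ) (σ : Fin m → ℕ) (c : Fin n → ℕ)
    (p : (Fin (K + 1) → Fin n → ℕ) × (Fin m → Fin n → ℕ)) :
    p ∈ accepted ρ σ c ↔ (((∀ i : Fin K, ∑ j, p.1 i.castSucc j = ρ i.castSucc) ∧
        ∑ j, p.1 (Fin.last K) j = ρ (Fin.last K) + ∑ k, σ k) ∧
      (∀ j, ∑ i : Fin K, p.1 i.castSucc j + p.1 (Fin.last K) j = c j)) ∧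
      (∀ k, ∑ j, p.2 k j = σ k) ∧ ∀ j, ∑ k, p.2 k j ≤ p.1 (Fin.last K) j := by
  unfold accepted proposals enlarge
  rw [mem_filter, mem_product, mem_tables, Fintype.mem_piFinset, Fin.forall_fin_succ']
  have h1 : ∀ i : Fin K, i.castSucc ≠ Fin.last K := fun i => (Fin.castSucc_lt_last i).ne
  simp only [mem_comps, Function.update_self, Fin.sum_univ_castSucc,
    Function.update_of_ne (h1 _)]
  tauto

theorem merge_castSucc {K m n : ℕ} (p : (Fin (K + 1) → Fin n → ℕ) × (Fin m → Fin n → ℕ))
    (i : Fin K) : merge p (Sum.inl i.castSucc) = p.1 i.castSucc := by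
  unfold merge
  rw [Sum.elim_inl, Function.update_of_ne (Fin.castSucc_lt_last i).ne]

theorem merge_last {K m n : ℕ} (p : (Fin (K + 1) → Fin n → ℕ) × (Fin m → Fin n → ℕ)) :
    merge p (Sum.inl (Fin.last K)) = fun j => p.1 (Fin.last K) j - ∑ k, p.2 k j := by
  unfold merge
  rw [Sum.elim_inl, Function.update_self]

theorem merge_inr {K m n : ℕ} (p : (Fin (K + 1) → Fin n → ℕ) × (Fin m → Fin n → ℕ))
    (k : Fin m) : merge p (Sum.inr k) = p.2 k := rfl

theorem merge_bijOn {K m n : ℕ} (ρ : Fin (K + 1) → ℕ) (σ : Fin m → ℕ) (c : Fin n → ℕ)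
    (h : ∑ i, ρ i + ∑ k, σ k = ∑ j, c j) :
    Set.BijOn merge
      (accepted ρ σ c : Set ((Fin (K + 1) → Fin n → ℕ) × (Fin m → Fin n → ℕ)))
      (tables (Sum.elim ρ σ) c : Set (Fin (K + 1) ⊕ Fin m → Fin n → ℕ)) := by
  refine ⟨?_, ?_, ?_⟩
  · intro p hp
    rw [mem_coe, mem_accepted] at hp
    obtain ⟨⟨⟨h1, h2⟩, h3⟩, h4, h5⟩ := hp
    rw [mem_coe, mem_tables]
    constructor
    · rintro (i | k)
      · refine Fin.lastCases ?_ (fun i => ?_) i
        · show ∑ j, merge p (Sum.inl (Fin.last K)) j = ρ (Fin.last K)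
          rw [merge_last]
          have h6 : ∑ j, (p.1 (Fin.last K) j - ∑ k, p.2 k j) + ∑ j, ∑ k, p.2 k j =
              ∑ j, p.1 (Fin.last K) j := by
            rw [← sum_add_distrib]
            exact sum_congr rfl fun j _ => Nat.sub_add_cancel (h5 j)
          have h7 : ∑ j, ∑ k, p.2 k j = ∑ k, σ k := by
            rw [sum_comm]
            exact sum_congr rfl fun k _ => h4 k
          show ∑ j, (p.1 (Fin.last K) j - ∑ k, p.2 k j) = ρ (Fin.last K)
          omega
        · show ∑ j, merge p (Sum.inl i.castSucc) j = ρ i.castSucc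
          rw [merge_castSucc]
          exact h1 i
      · exact h4 k
    · intro j
      rw [Fintype.sum_sum_type, Fin.sum_univ_castSucc, merge_last]
      have h6 : ∀ i : Fin K, merge p (Sum.inl i.castSucc) j = p.1 i.castSucc j := fun i => by
        rw [merge_castSucc]
      rw [sum_congr rfl fun i _ => h6 i]
      show ∑ i : Fin K, p.1 i.castSucc j + (p.1 (Fin.last K) j - ∑ k, p.2 k j) +
        ∑ k, p.2 k j = c j
      rw [add_assoc, Nat.sub_add_cancel (h5 j)]
      exact h3 j
  · intro p hp q hq hpq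
    rw [mem_coe, mem_accepted] at hp hq
    obtain ⟨⟨⟨h1, h2⟩, h3⟩, h4, h5⟩ := hp
    obtain ⟨⟨⟨h1', h2'⟩, h3'⟩, h4', h5'⟩ := hq
    have e0 : ∀ i : Fin K, p.1 i.castSucc = q.1 i.castSucc := fun i => by
      rw [← merge_castSucc p, hpq, merge_castSucc q]
    have e2 : p.2 = q.2 := by
      funext k
      rw [← merge_inr p, hpq, merge_inr q]
    have e1 : p.1 (Fin.last K) = q.1 (Fin.last K) := by
      funext j
      have h6 := h3 j
      have h7 := h3' j
      rw [sum_congr rfl fun i _ => congrFun (e0 i) j] at h6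
      omega
    have e : p.1 = q.1 := by
      funext i
      exact Fin.lastCases e1 e0 i
    exact Prod.ext e e2
  · intro X hX
    rw [mem_coe, mem_tables] at hX
    obtain ⟨h1, h2⟩ := hX
    have hne : ∀ i : Fin K, i.castSucc ≠ Fin.last K := fun i => (Fin.castSucc_lt_last i).ne
    refine ⟨(Function.update (fun i => X (Sum.inl i)) (Fin.last K)
      (fun j => X (Sum.inl (Fin.last K)) j + ∑ k, X (Sum.inr k) j), fun k => X (Sum.inr k)),
      ?_, ?_⟩
    · rw [mem_coe, mem_accepted]
      refine ⟨⟨⟨?_, ?_⟩, ?_⟩, ?_, ?_⟩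
      · intro i
        dsimp only
        rw [Function.update_of_ne (hne i)]
        exact h1 (Sum.inl i.castSucc)
      · dsimp only
        rw [Function.update_self, sum_add_distrib, h1 (Sum.inl (Fin.last K)), sum_comm,
          Sum.elim_inl]
        congr 1
        exact sum_congr rfl fun k _ => h1 (Sum.inr k)
      · intro j
        dsimp only
        rw [Function.update_self]
        have h3 : ∀ i : Fin K, Function.update (fun i => X (Sum.inl i)) (Fin.last K)
            (fun j => X (Sum.inl (Fin.last K)) j + ∑ k, X (Sum.inr k) j) i.castSucc j =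
            X (Sum.inl i.castSucc) j := fun i => by
          rw [Function.update_of_ne (hne i)]
        rw [sum_congr rfl fun i _ => h3 i]
        have := h2 j
        rw [Fintype.sum_sum_type, Fin.sum_univ_castSucc] at this
        rw [← add_assoc]
        exact this
      · intro k
        exact h1 (Sum.inr k)
      · intro j
        dsimp only
        rw [Function.update_self]
        exact Nat.le_add_left _ _
    · funext i
      rcases i with i | k
      · refine Fin.lastCases ?_ (fun i => ?_) i
        · rw [merge_last]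
          dsimp only
          rw [Function.update_self]
          funext j
          exact Nat.add_sub_cancel _ _
        · rw [merge_castSucc]
          dsimp only
          rw [Function.update_of_ne (hne i)]
      · rfl

end Vale.Agent.P328c
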