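import Mathlib

/-! # P328: contingency tables, any number of large rows; definitions -/

namespace Vale.Agent.P328c

open Finset

/-- the contingency tables with row sums `r` and column sums `c` -/
def tables {ι : Type*} [Fintype ι] [DecidableEq ι] {n : ℕ} (r : ι → ℕ) (c : Fin n → ℕ) :
    Finset (ι → Fin n → ℕ) :=
  (Fintype.piFinset fun _ => Fintype.piFinset fun j => range (c j + 1)).filter
    fun X => (∀ i, ∑ j, X i j = r i) ∧ ∀ j, ∑ i, X i j = c j

/-- the vectors of `n` nonnegative integers with sum `a` -/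
def comps (n a : ℕ) : Finset (Fin n → ℕ) :=
  (Fintype.piFinset fun _ => range (a + 1)).filter fun x => ∑ j, x j = a

/-- the row sums of the large rows, the last one enlarged by `R` -/
def enlarge {K : ℕ} (ρ : Fin (K + 1) → ℕ) (R : ℕ) : Fin (K + 1) → ℕ :=
  Function.update ρ (Fin.last K) (ρ (Fin.last K) + R)

/-- the proposals: a table with the large rows only, the last one enlarged by the total of the
small rows, together with arbitrary small rows -/
def proposals {K m n : ℕ} (ρ : Fin (K + 1) → ℕ) (σ : Fin m → ℕ) (c : Fin n → ℕ) :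
    Finset ((Fin (K + 1) → Fin n → ℕ) × (Fin m → Fin n → ℕ)) :=
  tables (enlarge ρ (∑ k, σ k)) c ×ˢ Fintype.piFinset fun k : Fin m => comps n (σ k)

/-- a proposal is accepted when the small rows fit below the last large row -/
def accepted {K m n : ℕ} (ρ : Fin (K + 1) → ℕ) (σ : Fin m → ℕ) (c : Fin n → ℕ) :
    Finset ((Fin (K + 1) → Fin n → ℕ) × (Fin m → Fin n → ℕ)) :=
  (proposals ρ σ c).filter fun p => ∀ j, ∑ k, p.2 k j ≤ p.1 (Fin.last K) j

/-- the table made from an accepted proposal -/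
def merge {K m n : ℕ} (p : (Fin (K + 1) → Fin n → ℕ) × (Fin m → Fin n → ℕ)) :
    Fin (K + 1) ⊕ Fin m → Fin n → ℕ :=
  Sum.elim (Function.update p.1 (Fin.last K)
    (fun j => p.1 (Fin.last K) j - ∑ k, p.2 k j)) p.2

/-- among all sequences of `T` proposals, at least the fraction `1 - δ` satisfies
`(1 - ε) N ≤ |proposals| * hits / T ≤ (1 + ε) N`, where `N` is the number of contingency tables
with row sums `ρ`, `σ` and `hits` the number of accepted proposals in the sequence -/
def Accurate {K m n : ℕ} (ρ : Fin (K + 1) → ℕ) (σ : Fin m → ℕ) (c : Fin n → ℕ) (T : ℕ)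
    (ε δ : ℝ) : Prop :=
  (1 - δ) * ((proposals ρ σ c).card : ℝ) ^ T ≤
    (((Fintype.piFinset (fun _ : Fin T => proposals ρ σ c)).filter (fun ω =>
      (1 - ε) * ((tables (Sum.elim ρ σ) c).card : ℝ) ≤ ((proposals ρ σ c).card : ℝ) *
        ((Finset.univ.filter (fun i => ω i ∈ accepted ρ σ c)).card : ℝ) / (T : ℝ) ∧
      ((proposals ρ σ c).card : ℝ) *
        ((Finset.univ.filter (fun i => ω i ∈ accepted ρ σ c)).card : ℝ) / (T : ℝ) ≤
          (1 + ε) * ((tables (Sum.elim ρ σ) c).card : ℝ))).card : ℝ)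

theorem mem_tables {ι : Type*} [Fintype ι] [DecidableEq ι] {n : ℕ} (r : ι → ℕ) (c : Fin n → ℕ)
    (X : ι → Fin n → ℕ) :
    X ∈ tables r c ↔ (∀ i, ∑ j, X i j = r i) ∧ ∀ j, ∑ i, X i j = c j := by
  unfold tables
  rw [mem_filter, and_iff_right_iff_imp]
  intro h
  rw [Fintype.mem_piFinset]
  intro i
  rw [Fintype.mem_piFinset]
  intro j
  rw [mem_range, Nat.lt_succ_iff, ← h.2 j]
  exact single_le_sum (f := fun i => X i j) (fun _ _ => Nat.zero_le _) (mem_univ i)

theorem mem_comps (n a : ℕ) (x : Fin n → ℕ) : x ∈ comps n a ↔ ∑ j, x j = a := by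
  unfold comps
  rw [mem_filter, and_iff_right_iff_imp]
  intro h
  rw [Fintype.mem_piFinset]
  intro j
  rw [mem_range, Nat.lt_succ_iff, ← h]
  exact single_le_sum (f := fun j => x j) (fun _ _ => Nat.zero_le _) (mem_univ j)

end Vale.Agent.P328c
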