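import Vale.Agent.P328c.Defs
import Vale.Agent.P328b.Key

/-! # P328: enlarging the small rows costs little, any number of large rows -/

namespace Vale.Agent.P328c

open Finset Vale.Agent.P328b

/-- at most a `1/(b i + 1)` fraction of the capped vectors is at the cap in column `i` -/
theorem top_le {n : ℕ} (b : Fin n → ℕ) (a : ℕ) (i : Fin n) (h : 2 * a ≤ ∑ j, b j) :
    ((Fintype.piFinset fun j => range (b j + 1)).filter
      (fun x => ∑ j, x j = a ∧ x i = b i)).card * (b i + 1) ≤ N b a := by
  have hN := N_eq_card b a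
  by_cases hi : 1 ≤ b i
  · have hu := unit_step b a i hi h
    have hN' := N_eq_card (Function.update b i (b i - 1)) a
    have hsplit : ((Fintype.piFinset fun j => range (b j + 1)).filter
        (fun x => ∑ j, x j = a ∧ x i = b i)).card +
        ((Fintype.piFinset fun j => range (Function.update b i (b i - 1) j + 1)).filter
        (fun x => ∑ j, x j = a)).card = N b a := by
      rw [hN, ← card_union_of_disjoint]
      · congr 1
        ext x
        simp only [mem_union, mem_filter, Fintype.mem_piFinset, mem_range]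
        constructor
        · rintro (⟨h1, h2, _⟩ | ⟨h1, h2⟩)
          · exact ⟨h1, h2⟩
          · refine ⟨fun j => ?_, h2⟩
            have := h1 j
            by_cases hj : j = i
            · subst hj
              rw [Function.update_self] at this
              omega
            · rwa [Function.update_of_ne hj] at this
        · rintro ⟨h1, h2⟩
          by_cases hx : x i = b i
          · exact Or.inl ⟨h1, h2, hx⟩
          · refine Or.inr ⟨fun j => ?_, h2⟩
            have := h1 j
            by_cases hj : j = i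
            · subst hj
              rw [Function.update_self]
              omega
            · rwa [Function.update_of_ne hj]
      · rw [disjoint_left]
        intro x hx hx'
        rw [mem_filter] at hx hx'
        have h1 := (Fintype.mem_piFinset.1 hx'.1) i
        rw [Function.update_self, mem_range] at h1
        have := hx.2.2
        omega
    rw [← hN'] at hsplit
    nlinarith
  · have h0 : b i = 0 := by omega
    rw [h0, zero_add, mul_one, hN]
    refine card_le_card ?_
    intro x hx
    rw [mem_filter] at hx ⊢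
    exact ⟨hx.1, hx.2.1⟩

theorem N_mono {n : ℕ} (b b' : Fin n → ℕ) (a : ℕ) (h : ∀ j, b j ≤ b' j) : N b a ≤ N b' a := by
  rw [N_eq_card, N_eq_card]
  refine card_le_card ?_
  intro x hx
  rw [mem_filter, Fintype.mem_piFinset] at hx ⊢
  refine ⟨fun j => ?_, hx.2⟩
  have h1 := hx.1 j
  have h2 := h j
  rw [mem_range] at h1 ⊢
  omega

/-- forget row `w` and the last row -/
def phi {K n : ℕ} (w : Fin (K + 1)) (Z : Fin (K + 1) → Fin n → ℕ) : Fin (K + 1) → Fin n → ℕ :=
  fun v => if v = Fin.last K then 0 else if v = w then 0 else Z v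

theorem phi_sum {K n : ℕ} (w : Fin (K + 1)) (hw : w ≠ Fin.last K)
    (Z : Fin (K + 1) → Fin n → ℕ) (j : Fin n) :
    ∑ v, Z v j = Z w j + Z (Fin.last K) j + ∑ v, phi w Z v j := by
  have h : ∀ v, Z v j = (if v = w then Z w j else 0) +
      (if v = Fin.last K then Z (Fin.last K) j else 0) + phi w Z v j := by
    intro v
    unfold phi
    by_cases h1 : v = Fin.last K
    · subst h1
      rw [if_neg (Ne.symm hw), if_pos rfl, if_pos rfl]
      simp
    · by_cases h2 : v = w
      · subst h2
        simp [h1]
      · simp [h1, h2]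
  calc ∑ v, Z v j = ∑ v, ((if v = w then Z w j else 0) +
      (if v = Fin.last K then Z (Fin.last K) j else 0) + phi w Z v j) :=
        sum_congr rfl fun v _ => h v
    _ = _ := by
        rw [sum_add_distrib, sum_add_distrib, sum_ite_eq', sum_ite_eq']
        simp

theorem phi_eq {K n : ℕ} (w : Fin (K + 1)) (Z Z' : Fin (K + 1) → Fin n → ℕ)
    (h : phi w Z = phi w Z') (hw : Z w = Z' w) (hl : Z (Fin.last K) = Z' (Fin.last K)) :
    Z = Z' := by
  funext v
  by_cases h1 : v = Fin.last K
  · rw [h1]
    exact hl
  · by_cases h2 : v = w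
    · rw [h2]
      exact hw
    · have := congrFun h v
      unfold phi at this
      rwa [if_neg h1, if_neg h2, if_neg h1, if_neg h2] at this

theorem fiber {K n : ℕ} (ρ : Fin (K + 1) → ℕ) (c y : Fin n → ℕ) (w : Fin (K + 1))
    (hw : w ≠ Fin.last K) (o : Fin (K + 1) → Fin n → ℕ) (i : Fin n)
    (hcond : ρ w + ∑ j, y j ≤ ρ (Fin.last K)) :
    (c i - y i + K) * ((tables ρ c).filter (fun Z => ((∀ j, y j ≤ Z (Fin.last K) j) ∧
        Z (Fin.last K) i = y i ∧ c i - y i ≤ K * Z w i) ∧ phi w Z = o)).card ≤
      K * ((tables ρ c).filter (fun Z => phi w Z = o)).card := by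
  classical
  rcases Finset.eq_empty_or_nonempty ((tables ρ c).filter (fun Z =>
      ((∀ j, y j ≤ Z (Fin.last K) j) ∧ Z (Fin.last K) i = y i ∧ c i - y i ≤ K * Z w i) ∧
        phi w Z = o)) with he | ⟨Z0, hZ0⟩
  · rw [he, card_empty, mul_zero]
    exact Nat.zero_le _
  rw [mem_filter, mem_tables] at hZ0
  obtain ⟨⟨hr0, hc0⟩, ⟨hy0, hi0, hK0⟩, ho0⟩ := hZ0
  set s : Fin n → ℕ := fun j => Z0 w j + Z0 (Fin.last K) j with hs
  have hsj : ∀ Z, Z ∈ tables ρ c → phi w Z = o → ∀ j, Z w j + Z (Fin.last K) j = s j := by
    intro Z hZ hZo j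
    rw [mem_tables] at hZ
    have h1 := hZ.2 j
    rw [phi_sum w hw, hZo] at h1
    have h2 := hc0 j
    rw [phi_sum w hw, ho0] at h2
    simp only [hs]
    omega
  have hssum : ∑ j, s j = ρ w + ρ (Fin.last K) := by
    simp only [hs]
    rw [sum_add_distrib, hr0, hr0]
  have hys : ∀ j, y j ≤ s j := fun j => (hy0 j).trans (Nat.le_add_left _ _)
  have hsub : ∑ j, (s j - y j) + ∑ j, y j = ρ w + ρ (Fin.last K) := by
    rw [← hssum, ← sum_add_distrib]
    exact sum_congr rfl fun j _ => Nat.sub_add_cancel (hys j)
  have htop := top_le (fun j => s j - y j) (ρ w) i (by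
    show 2 * ρ w ≤ ∑ j, (s j - y j)
    omega)
  have hmono := N_mono (fun j => s j - y j) s (ρ w) (fun j => Nat.sub_le _ _)
  have hB : ((tables ρ c).filter (fun Z => ((∀ j, y j ≤ Z (Fin.last K) j) ∧
        Z (Fin.last K) i = y i ∧ c i - y i ≤ K * Z w i) ∧ phi w Z = o)).card ≤
      ((Fintype.piFinset fun j => range (s j - y j + 1)).filter
      (fun x => ∑ j, x j = ρ w ∧ x i = s i - y i)).card := by
    refine card_le_card_of_injOn (fun Z => Z w) ?_ ?_
    · intro Z hZ
      rw [mem_coe, mem_filter] at hZ
      obtain ⟨hZt, ⟨hyZ, hiZ, _⟩, hZo⟩ := hZ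
      have h1 := hsj Z hZt hZo
      rw [mem_tables] at hZt
      rw [mem_coe, mem_filter, Fintype.mem_piFinset]
      refine ⟨fun j => ?_, hZt.1 w, ?_⟩
      · have h2 := h1 j
        have h3 := hyZ j
        rw [mem_range]
        show Z w j < s j - y j + 1
        omega
      · have h2 := h1 i
        show Z w i = s i - y i
        omega
    · intro Z hZ Z' hZ' hww
      rw [mem_coe, mem_filter] at hZ hZ'
      have h1 := hsj Z hZ.1 hZ.2.2
      have h2 := hsj Z' hZ'.1 hZ'.2.2
      refine phi_eq w Z Z' (hZ.2.2.trans hZ'.2.2.symm) hww ?_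
      funext j
      have h3 := h1 j
      have h4 := h2 j
      have h5 := congrFun hww j
      simp only at h5
      omega
  have hA : N s (ρ w) ≤ ((tables ρ c).filter (fun Z => phi w Z = o)).card := by
    rw [N_eq_card]
    refine card_le_card_of_injOn (fun x v => if v = Fin.last K then fun j => s j - x j else
      if v = w then x else Z0 v) ?_ ?_
    · intro x hx
      rw [mem_coe, mem_filter, Fintype.mem_piFinset] at hx
      obtain ⟨hx1, hx2⟩ := hx
      have hxs : ∀ j, x j ≤ s j := fun j => by
        have := hx1 j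
        rw [mem_range] at this
        omega
      have hsum : ∑ j, (s j - x j) = ρ (Fin.last K) := by
        have h3 : ∑ j, (s j - x j) + ∑ j, x j = ρ w + ρ (Fin.last K) := by
          rw [← hssum, ← sum_add_distrib]
          exact sum_congr rfl fun j _ => Nat.sub_add_cancel (hxs j)
        omega
      have hphi : phi w (fun v => if v = Fin.last K then fun j => s j - x j else
          if v = w then x else Z0 v) = o := by
        rw [← ho0]
        funext v
        unfold phi
        by_cases h1 : v = Fin.last K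
        · rw [if_pos h1, if_pos h1]
        · by_cases h2 : v = w
          · rw [if_neg h1, if_pos h2, if_neg h1, if_pos h2]
          · simp only [if_neg h1, if_neg h2]
      rw [mem_coe, mem_filter, mem_tables]
      refine ⟨⟨fun v => ?_, fun j => ?_⟩, hphi⟩
      · by_cases h1 : v = Fin.last K
        · simp only [if_pos h1]
          rw [h1]
          exact hsum
        · by_cases h2 : v = w
          · simp only [if_neg h1, if_pos h2]
            rw [h2]
            exact hx2
          · simp only [if_neg h1, if_neg h2]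
            exact hr0 v
      · rw [phi_sum w hw, hphi]
        have h2 := hc0 j
        rw [phi_sum w hw, ho0] at h2
        have h3 := hxs j
        have e1 : (if w = Fin.last K then fun j => s j - x j else
          if w = w then x else Z0 w) j = x j := by
          rw [if_neg hw, if_pos rfl]
        have e2 : (if Fin.last K = Fin.last K then fun j => s j - x j else
          if Fin.last K = w then x else Z0 (Fin.last K)) j = s j - x j := by
          rw [if_pos rfl]
        rw [e1, e2]
        have h4 : s j = Z0 w j + Z0 (Fin.last K) j := rfl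
        omega
    · intro x _ x' _ hxx
      have h1 := congrFun hxx w
      simp only [if_neg hw, if_pos] at h1
      exact h1
  have hZi : c i - y i + K ≤ K * (s i - y i + 1) := by
    have h1 : s i - y i = Z0 w i := by
      simp only [hs]
      omega
    rw [h1, mul_add, mul_one]
    exact Nat.add_le_add_right hK0 K
  calc (c i - y i + K) * ((tables ρ c).filter (fun Z => ((∀ j, y j ≤ Z (Fin.last K) j) ∧
        Z (Fin.last K) i = y i ∧ c i - y i ≤ K * Z w i) ∧ phi w Z = o)).card
      ≤ (K * (s i - y i + 1)) * ((Fintype.piFinset fun j => range (s j - y j + 1)).filter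
      (fun x => ∑ j, x j = ρ w ∧ x i = s i - y i)).card := Nat.mul_le_mul hZi hB
    _ = K * (((Fintype.piFinset fun j => range (s j - y j + 1)).filter
      (fun x => ∑ j, x j = ρ w ∧ x i = s i - y i)).card * (s i - y i + 1)) := by ring
    _ ≤ K * N (fun j => s j - y j) (ρ w) := Nat.mul_le_mul_left _ htop
    _ ≤ K * N s (ρ w) := Nat.mul_le_mul_left _ hmono
    _ ≤ _ := Nat.mul_le_mul_left _ hA

theorem one_row {K n : ℕ} (ρ : Fin (K + 1) → ℕ) (c y : Fin n → ℕ) (w : Fin (K + 1))
    (hw : w ≠ Fin.last K) (i : Fin n) (hcond : ρ w + ∑ j, y j ≤ ρ (Fin.last K)) :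
    (c i - y i + K) * ((tables ρ c).filter (fun Z => (∀ j, y j ≤ Z (Fin.last K) j) ∧
        Z (Fin.last K) i = y i ∧ c i - y i ≤ K * Z w i)).card ≤ K * (tables ρ c).card := by
  classical
  rw [card_eq_sum_card_fiberwise (f := phi w) (s := (tables ρ c).filter (fun Z =>
      (∀ j, y j ≤ Z (Fin.last K) j) ∧ Z (Fin.last K) i = y i ∧ c i - y i ≤ K * Z w i))
      (t := (tables ρ c).image (phi w))
      (fun Z hZ => mem_coe.2 (mem_image_of_mem _ (mem_filter.1 (mem_coe.1 hZ)).1)),
    card_eq_sum_card_fiberwise (f := phi w) (s := tables ρ c)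
      (t := (tables ρ c).image (phi w)) (fun Z hZ => mem_coe.2 (mem_image_of_mem _ hZ)),
    mul_sum, mul_sum]
  refine sum_le_sum fun o _ => ?_
  rw [filter_filter]
  exact fiber ρ c y w hw o i hcond

theorem all_rows {K n : ℕ} (hK : 1 ≤ K) (ρ : Fin (K + 1) → ℕ) (c y : Fin n → ℕ) (i : Fin n)
    (hcond : ∀ w, w ≠ Fin.last K → ρ w + ∑ j, y j ≤ ρ (Fin.last K)) :
    (c i - y i + K) * ((tables ρ c).filter (fun Z => (∀ j, y j ≤ Z (Fin.last K) j) ∧
        Z (Fin.last K) i = y i)).card ≤ K ^ 2 * (tables ρ c).card := by
  classical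
  have hsub : (tables ρ c).filter (fun Z => (∀ j, y j ≤ Z (Fin.last K) j) ∧
        Z (Fin.last K) i = y i) ⊆ (univ.erase (Fin.last K)).biUnion (fun w =>
        (tables ρ c).filter (fun Z => (∀ j, y j ≤ Z (Fin.last K) j) ∧
        Z (Fin.last K) i = y i ∧ c i - y i ≤ K * Z w i)) := by
    intro Z hZ
    rw [mem_filter] at hZ
    obtain ⟨hZt, hyZ, hiZ⟩ := hZ
    rw [mem_biUnion]
    by_contra hcon
    have hall : ∀ w ∈ univ.erase (Fin.last K), K * Z w i + 1 ≤ c i - y i := by
      intro w hw
      by_contra h
      exact hcon ⟨w, hw, mem_filter.2 ⟨hZt, hyZ, hiZ, by omega⟩⟩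
    have hcard : (univ.erase (Fin.last K)).card = K := by
      rw [card_erase_of_mem (mem_univ _), card_univ, Fintype.card_fin]
      rfl
    have h1 : ∑ w ∈ univ.erase (Fin.last K), (K * Z w i + 1) ≤ K * (c i - y i) := by
      have := sum_le_sum hall
      rw [sum_const, hcard, smul_eq_mul] at this
      exact this
    rw [sum_add_distrib, ← mul_sum, sum_const, hcard, smul_eq_mul, mul_one] at h1
    have h2 := ((mem_tables _ _ _).1 hZt).2 i
    rw [← add_sum_erase univ (fun v => Z v i) (mem_univ (Fin.last K)), hiZ] at h2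
    have h3 : ∑ w ∈ univ.erase (Fin.last K), Z w i = c i - y i := by omega
    rw [h3] at h1
    omega
  have hcard : (univ.erase (Fin.last K)).card = K := by
    rw [card_erase_of_mem (mem_univ _), card_univ, Fintype.card_fin]
    rfl
  calc (c i - y i + K) * ((tables ρ c).filter (fun Z => (∀ j, y j ≤ Z (Fin.last K) j) ∧
        Z (Fin.last K) i = y i)).card
      ≤ (c i - y i + K) * ∑ w ∈ univ.erase (Fin.last K),
        ((tables ρ c).filter (fun Z => (∀ j, y j ≤ Z (Fin.last K) j) ∧
        Z (Fin.last K) i = y i ∧ c i - y i ≤ K * Z w i)).card :=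
        Nat.mul_le_mul_left _ ((card_le_card hsub).trans card_biUnion_le)
    _ ≤ ∑ w ∈ univ.erase (Fin.last K), K * (tables ρ c).card := by
        rw [mul_sum]
        exact sum_le_sum fun w hw => one_row ρ c y w (ne_of_mem_erase hw) i
          (hcond w (ne_of_mem_erase hw))
    _ = K ^ 2 * (tables ρ c).card := by
        rw [sum_const, hcard, smul_eq_mul]
        ring

/-- the tables whose last row is at least `y` -/
theorem remove {K n : ℕ} (hK : 1 ≤ K) (ρ : Fin (K + 1) → ℕ) (c : Fin n → ℕ) :
    ∀ (R : ℕ) (y : Fin n → ℕ), ∑ j, y j = R →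
      (∀ w, w ≠ Fin.last K → ρ w + R ≤ ρ (Fin.last K)) →
      (1 - 2 * (K : ℝ) ^ 2 * ∑ j, (y j : ℝ) / (c j + 1)) * ((tables ρ c).card : ℝ) ≤
        (((tables ρ c).filter (fun Z => ∀ j, y j ≤ Z (Fin.last K) j)).card : ℝ) := by
  classical
  have hK1 : (1 : ℝ) ≤ (K : ℝ) ^ 2 := one_le_pow₀ (by exact_mod_cast hK)
  intro R
  induction R with
  | zero =>
    intro y hy _
    have h0 : ∀ j, y j = 0 := fun j => (sum_eq_zero_iff.1 hy) j (mem_univ j)
    have e : (tables ρ c).filter (fun Z => ∀ j, y j ≤ Z (Fin.last K) j) = tables ρ c :=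
      filter_true_of_mem fun Z _ j => by
        rw [h0 j]
        exact Nat.zero_le _
    rw [e]
    have : ∑ j, (y j : ℝ) / (c j + 1) = 0 := sum_eq_zero fun j _ => by
      rw [h0 j]
      simp
    rw [this, mul_zero, sub_zero, one_mul]
  | succ R ih =>
    intro y hy hR
    by_cases hbig : ∃ i, c i + 1 ≤ 2 * y i
    · obtain ⟨i0, hi0⟩ := hbig
      have h1 : (1 : ℝ) / 2 ≤ ∑ j, (y j : ℝ) / (c j + 1) := by
        have h2 : (1 : ℝ) / 2 ≤ (y i0 : ℝ) / (c i0 + 1) := by
          rw [div_le_div_iff₀ (by norm_num) (by positivity)]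
          have : ((c i0 : ℝ) + 1) ≤ 2 * y i0 := by exact_mod_cast hi0
          linarith
        exact h2.trans (single_le_sum (f := fun j => (y j : ℝ) / ((c j : ℝ) + 1))
          (fun j _ => by positivity) (mem_univ i0))
      have h3 : (0 : ℝ) ≤ ((tables ρ c).card : ℝ) := Nat.cast_nonneg _
      have h4 : (0 : ℝ) ≤ (((tables ρ c).filter
        (fun Z => ∀ j, y j ≤ Z (Fin.last K) j)).card : ℝ) := Nat.cast_nonneg _
      have h5 : 1 - 2 * (K : ℝ) ^ 2 * ∑ j, (y j : ℝ) / (c j + 1) ≤ 0 := by nlinarith
      nlinarith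
    · have hsmall : ∀ i, 2 * y i ≤ c i := fun i => by
        by_contra h
        exact hbig ⟨i, by omega⟩
      obtain ⟨i, hi⟩ : ∃ i, 1 ≤ y i := by
        by_contra hcon
        have hcon' : ∀ i, ¬ 1 ≤ y i := not_exists.1 hcon
        have : ∑ j, y j = 0 := sum_eq_zero fun j _ => by
          have := hcon' j
          omega
        omega
      set y' := Function.update y i (y i - 1) with hy'
      have hy'i : y' i = y i - 1 := by rw [hy', Function.update_self]
      have hy'j : ∀ j, j ≠ i → y' j = y j := fun j hj => by rw [hy', Function.update_of_ne hj]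
      have hsum' : ∑ j, y' j = R := by
        rw [← add_sum_erase univ y' (mem_univ i), hy'i]
        rw [← add_sum_erase univ y (mem_univ i)] at hy
        have : ∑ j ∈ univ.erase i, y' j = ∑ j ∈ univ.erase i, y j :=
          sum_congr rfl fun j hj => hy'j j (ne_of_mem_erase hj)
        omega
      have IH := ih y' hsum' (fun w hw => by have := hR w hw; omega)
      have hE := all_rows hK ρ c y' i (fun w hw => by
        rw [hsum']
        have := hR w hw
        omega)
      have hsplit : ((tables ρ c).filter (fun Z => ∀ j, y' j ≤ Z (Fin.last K) j)).card =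
          ((tables ρ c).filter (fun Z => ∀ j, y j ≤ Z (Fin.last K) j)).card +
          ((tables ρ c).filter (fun Z => (∀ j, y' j ≤ Z (Fin.last K) j) ∧
            Z (Fin.last K) i = y' i)).card := by
        rw [← card_union_of_disjoint]
        · congr 1
          ext Z
          simp only [mem_union, mem_filter]
          constructor
          · rintro ⟨h1, h2⟩
            by_cases h3 : Z (Fin.last K) i = y' i
            · exact Or.inr ⟨h1, h2, h3⟩
            · refine Or.inl ⟨h1, fun j => ?_⟩
              by_cases hj : j = i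
              · subst hj
                have := h2 j
                omega
              · rw [← hy'j j hj]
                exact h2 j
          · rintro (⟨h1, h2⟩ | ⟨h1, h2, _⟩)
            · refine ⟨h1, fun j => ?_⟩
              by_cases hj : j = i
              · subst hj
                have := h2 j
                omega
              · rw [hy'j j hj]
                exact h2 j
            · exact ⟨h1, h2⟩
        · rw [disjoint_left]
          intro Z h1 h2
          rw [mem_filter] at h1 h2
          have h3 := h1.2 i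
          have h4 := h2.2.2
          omega
      have hEr : (((tables ρ c).filter (fun Z => (∀ j, y' j ≤ Z (Fin.last K) j) ∧
            Z (Fin.last K) i = y' i)).card : ℝ) ≤
          2 * (K : ℝ) ^ 2 / ((c i : ℝ) + 1) * ((tables ρ c).card : ℝ) := by
        have hnat : (c i + 1) * ((tables ρ c).filter (fun Z =>
            (∀ j, y' j ≤ Z (Fin.last K) j) ∧ Z (Fin.last K) i = y' i)).card ≤
            2 * (K ^ 2 * (tables ρ c).card) := by
          have h1 : c i + 1 ≤ 2 * (c i - y' i + K) := by
            have := hsmall i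
            omega
          calc _ ≤ (2 * (c i - y' i + K)) * ((tables ρ c).filter (fun Z =>
                (∀ j, y' j ≤ Z (Fin.last K) j) ∧ Z (Fin.last K) i = y' i)).card :=
                Nat.mul_le_mul_right _ h1
            _ = 2 * ((c i - y' i + K) * ((tables ρ c).filter (fun Z =>
                (∀ j, y' j ≤ Z (Fin.last K) j) ∧ Z (Fin.last K) i = y' i)).card) := by ring
            _ ≤ _ := Nat.mul_le_mul_left _ hE
        have hreal := (Nat.cast_le (α := ℝ)).2 hnat
        push_cast at hreal
        have hpos : (0 : ℝ) < (c i : ℝ) + 1 := by positivity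
        rw [div_mul_eq_mul_div, le_div_iff₀ hpos]
        linarith
      have hsumr : ∑ j, (y j : ℝ) / (c j + 1) =
          ∑ j, (y' j : ℝ) / (c j + 1) + 1 / ((c i : ℝ) + 1) := by
        rw [← add_sum_erase univ (fun j => (y j : ℝ) / ((c j : ℝ) + 1)) (mem_univ i),
          ← add_sum_erase univ (fun j => (y' j : ℝ) / ((c j : ℝ) + 1)) (mem_univ i)]
        have e1 : ∑ j ∈ univ.erase i, (y j : ℝ) / ((c j : ℝ) + 1) =
            ∑ j ∈ univ.erase i, (y' j : ℝ) / ((c j : ℝ) + 1) :=
          sum_congr rfl fun j hj => by rw [hy'j j (ne_of_mem_erase hj)]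
        rw [e1, hy'i, Nat.cast_sub hi]
        push_cast
        ring
      have hsplitr := congrArg (Nat.cast (R := ℝ)) hsplit
      push_cast at hsplitr
      rw [hsumr]
      have e2 : (1 - 2 * (K : ℝ) ^ 2 * (∑ j, (y' j : ℝ) / (c j + 1) + 1 / ((c i : ℝ) + 1))) *
          ((tables ρ c).card : ℝ) =
          (1 - 2 * (K : ℝ) ^ 2 * ∑ j, (y' j : ℝ) / (c j + 1)) * ((tables ρ c).card : ℝ) -
          2 * (K : ℝ) ^ 2 / ((c i : ℝ) + 1) * ((tables ρ c).card : ℝ) := by ring
      rw [e2]
      linarith

end Vale.Agent.P328c
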