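import Vale.Agent.P328c.Key
import Vale.Agent.P328c.Bij
import Vale.Agent.P328b.Avg

/-! # P328: acceptance probability, any number of large rows -/

namespace Vale.Agent.P328c

open Finset

theorem comps_eq (n a : ℕ) : comps n a = Vale.Agent.P328b.comps n a := rfl

theorem avg (m n : ℕ) (s : Fin m → ℕ) (j : Fin n) :
    n * ∑ Y ∈ Fintype.piFinset (fun k : Fin m => comps n (s k)), ∑ k, Y k j =
      (∑ k, s k) * (Fintype.piFinset (fun k : Fin m => comps n (s k))).card :=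
  Vale.Agent.P328b.avg m n s j

theorem card_accepted {K m n : ℕ} (ρ : Fin (K + 1) → ℕ) (σ : Fin m → ℕ) (c : Fin n → ℕ) :
    (accepted ρ σ c).card = ∑ Y ∈ Fintype.piFinset (fun k : Fin m => comps n (σ k)),
      ((tables (enlarge ρ (∑ k, σ k)) c).filter
        (fun Z => ∀ j, ∑ k, Y k j ≤ Z (Fin.last K) j)).card := by
  unfold accepted proposals
  rw [card_filter, sum_product_right]
  refine sum_congr rfl fun Y _ => ?_
  rw [card_filter]

theorem accepted_ge {K m n : ℕ} (hK : 1 ≤ K) (ρ : Fin (K + 1) → ℕ) (σ : Fin m → ℕ)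
    (c : Fin n → ℕ) (hmax : ∀ w, ρ w ≤ ρ (Fin.last K)) :
    (1 - 2 * (K : ℝ) ^ 2 * (((∑ k, σ k : ℕ) : ℝ) / n * ∑ j, 1 / ((c j : ℝ) + 1))) *
      ((proposals ρ σ c).card : ℝ) ≤ ((accepted ρ σ c).card : ℝ) := by
  set R := ∑ k, σ k with hR
  set 𝒴 := Fintype.piFinset (fun k : Fin m => comps n (σ k)) with h𝒴
  have hone : ∀ Y ∈ 𝒴, (1 - 2 * (K : ℝ) ^ 2 * ∑ j, ((∑ k, Y k j : ℕ) : ℝ) / (c j + 1)) *
      ((tables (enlarge ρ R) c).card : ℝ) ≤
      (((tables (enlarge ρ R) c).filter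
        (fun Z => ∀ j, ∑ k, Y k j ≤ Z (Fin.last K) j)).card : ℝ) := by
    intro Y hY
    rw [h𝒴, Fintype.mem_piFinset] at hY
    have hYsum : ∑ j, ∑ k, Y k j = R := by
      rw [sum_comm, hR]
      exact sum_congr rfl fun k _ => (mem_comps _ _ _).1 (hY k)
    refine remove hK (enlarge ρ R) c R (fun j => ∑ k, Y k j) hYsum ?_
    intro w hw
    unfold enlarge
    rw [Function.update_self, Function.update_of_ne hw]
    exact Nat.add_le_add_right (hmax w) R
  have hcard : ((proposals ρ σ c).card : ℝ) = ((tables (enlarge ρ R) c).card : ℝ) * 𝒴.card := by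
    unfold proposals
    rw [card_product]
    push_cast
    rfl
  have hacc : ((accepted ρ σ c).card : ℝ) = ∑ Y ∈ 𝒴,
      (((tables (enlarge ρ R) c).filter
        (fun Z => ∀ j, ∑ k, Y k j ≤ Z (Fin.last K) j)).card : ℝ) := by
    rw [card_accepted]
    push_cast
    rfl
  rw [hcard, hacc]
  refine le_trans (le_of_eq ?_) (sum_le_sum hone)
  rw [← sum_mul]
  have havg : ∀ j : Fin n, ∑ Y ∈ 𝒴, ((∑ k, Y k j : ℕ) : ℝ) = (R : ℝ) / n * 𝒴.card := by
    intro j
    have hn : (n : ℝ) ≠ 0 := by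
      have : 0 < n := Nat.pos_of_ne_zero fun h0 => by
        subst h0
        exact j.elim0
      positivity
    have h1 := avg m n σ j
    have h2 := congrArg (Nat.cast (R := ℝ)) h1
    push_cast at h2
    field_simp
    rw [hR, h𝒴]
    push_cast
    linarith
  have e : ∑ Y ∈ 𝒴, (1 - 2 * (K : ℝ) ^ 2 * ∑ j, ((∑ k, Y k j : ℕ) : ℝ) / (c j + 1)) =
      𝒴.card * (1 - 2 * (K : ℝ) ^ 2 * ((R : ℝ) / n * ∑ j, 1 / ((c j : ℝ) + 1))) := by
    rw [sum_sub_distrib, sum_const, nsmul_eq_mul, mul_one, ← mul_sum, sum_comm]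
    have e1 : ∀ j : Fin n, ∑ Y ∈ 𝒴, ((∑ k, Y k j : ℕ) : ℝ) / (c j + 1) =
        (R : ℝ) / n * 𝒴.card * (1 / ((c j : ℝ) + 1)) := by
      intro j
      rw [← sum_div, havg j]
      ring
    rw [sum_congr rfl fun j _ => e1 j, ← mul_sum]
    ring
  rw [e]
  ring

end Vale.Agent.P328c
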